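import Vale.Agent.P019.Bridge

open P019.S

namespace Vale.Agent.Results.P019.A_full

theorem result (ℓ : ℕ) [Fact ℓ.Prime] (k K l L : Type*) [Field k] [Field K] [Algebra k K]
    [Field l] [Field L] [Algebra l L] [IsAlgClosed k] [IsAlgClosed l]
    (hK : (⊤ : IntermediateField k K).FG) (hL : (⊤ : IntermediateField l L).FG)
    (dK : 2 ≤ Algebra.trdeg k K) (dL : 2 ≤ Algebra.trdeg l L)
    (hk : (ℓ : k) ≠ 0) (hl : (ℓ : l) ≠ 0) (Θ : V ℓ K ≃ₗ[ZMod ℓ] V ℓ L) (hΘ : Compatible ℓ Θ) :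
    ∃ (c : (ZMod ℓ)ˣ) (α : Perf K ≃+* Perf L) (iK : V ℓ K → V ℓ (Perf K))
      (iL : V ℓ L → V ℓ (Perf L)) (a : V ℓ (Perf K) → V ℓ (Perf L)),
      α '' Set.range (algebraMap k (Perf K)) = Set.range (algebraMap l (Perf L)) ∧
      Induced ℓ (algebraMap K (Perf K)) iK ∧ Function.Bijective iK ∧
      Induced ℓ (algebraMap L (Perf L)) iL ∧ Function.Bijective iL ∧
      Induced ℓ α.toRingHom a ∧
      ∀ v : V ℓ K, iL (Θ v) = (c : ZMod ℓ) • a (iK v) := by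
  obtain ⟨h₁, h₂, c, α, h₃, h₄⟩ := P019.E.final hK hL dK dL hk hl Θ (P019.br_compat hΘ)
  exact ⟨c, α, _, _, _, h₃, P019.br_ind ℓ _, h₁, P019.br_ind ℓ _, h₂, P019.br_ind ℓ _, h₄⟩

end Vale.Agent.Results.P019.A_full
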